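import Vale.Agent.P245.K.All
import Vale.Agent.P245.H847.HandIn
import Vale.Agent.P245.H895.QuadS
import Vale.Agent.P245.H607.Final

open MeasureTheory Matrix
open scoped ContDiff

namespace Vale.Agent.P245.H875

open Vale.Agent.P245

theorem var_nonneg {n : ℕ} {μ : Measure (EuclideanSpace ℝ (Fin n))} [IsProbabilityMeasure μ]
    {f : EuclideanSpace ℝ (Fin n) → ℝ} (hf : Continuous f) (hfc : HasCompactSupport f) :
    0 ≤ (∫ x, f x ^ 2 ∂μ) - (∫ x, f x ∂μ) ^ 2 := by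
  obtain ⟨M, -, hM⟩ := H847.Lp.exists_bd hf hfc
  have i1 : Integrable f μ := H847.Lp.int_of_bdd hf hM
  have i2 : Integrable (fun x => f x ^ 2) μ :=
    H847.Lp.int_of_bdd (by fun_prop) (M := M ^ 2) fun x => by
      rw [abs_pow]; exact pow_le_pow_left₀ (abs_nonneg _) (hM x) 2
  obtain ⟨m, hm⟩ : ∃ m, m = ∫ x, f x ∂μ := ⟨_, rfl⟩
  have j1 : Integrable (fun x => 2 * m * f x) μ := i1.const_mul _
  have j2 : Integrable (fun x => f x ^ 2 - 2 * m * f x) μ := i2.sub j1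
  have j3 : 0 ≤ ∫ x, (f x ^ 2 - 2 * m * f x + m ^ 2) ∂μ :=
    integral_nonneg fun x => by
      show (0:ℝ) ≤ f x ^ 2 - 2 * m * f x + m ^ 2
      nlinarith [sq_nonneg (f x - m)]
  rw [integral_add j2 (integrable_const _), integral_sub i2 j1, integral_const_mul, ← hm] at j3
  simp only [integral_const, probReal_univ, smul_eq_mul, one_mul] at j3
  rw [← hm]
  nlinarith

/-- **Dimension-free Poincaré inequality for log-concave measures** (the Kannan-Lovász-Simonovits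
conjecture), and its consequences for the logarithmic Sobolev inequality and for the concentration
of linearly subgaussian log-concave measures.  One absolute constant `C`. -/
theorem comb :
    ∃ C : ℝ, 0 < C ∧ ∀ (n : ℕ) (μ : Measure (EuclideanSpace ℝ (Fin n))) [IsProbabilityMeasure μ],
      HasLogConcaveDensity μ →
      -- (A) barycentre `b`, covariance matrix `K`
      (∀ (b : Fin n → ℝ) (K : Matrix (Fin n) (Fin n) ℝ), (∀ i, ∫ x, x i ∂μ = b i) →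
        (∀ i j, ∫ x, (x i - b i) * (x j - b j) ∂μ = K i j) →
        ∀ f : EuclideanSpace ℝ (Fin n) → ℝ, ContDiff ℝ ∞ f → HasCompactSupport f →
          (∫ x, f x ^ 2 ∂μ) - (∫ x, f x ∂μ) ^ 2 ≤
            C * ∫ x, ∑ i, ∑ j, K i j * (gradient f x i * gradient f x j) ∂μ ∧
          -- `Λ` = any upper bound of the covariance matrix
          ∀ Λ : ℝ, 0 ≤ Λ → (∀ v : Fin n → ℝ, v ⬝ᵥ (K *ᵥ v) ≤ Λ * ∑ i, v i ^ 2) →
            (∫ x, f x ^ 2 ∂μ) - (∫ x, f x ∂μ) ^ 2 ≤ C * Λ * ∫ x, ‖gradient f x‖ ^ 2 ∂μ ∧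
            (∀ R : ℝ, 1 ≤ R → (∀ x, f x ^ 2 ≤ R * ∫ y, f y ^ 2 ∂μ) →
              Entropy μ (fun x => f x ^ 2) ≤
                C * (1 + Real.log R) * Λ * ∫ x, ‖gradient f x‖ ^ 2 ∂μ) ∧
            (∀ p : ℝ, 2 < p →
              Entropy μ (fun x => f x ^ 2) ≤
                C * (p / (p - 2)) * Λ * (∫ x, ‖gradient f x‖ ^ p ∂μ) ^ (2 / p))) ∧
      -- (B) `μ` linearly `a`-subgaussian
      (∀ a : ℝ, 0 < a → LinearlySubgaussian μ a →
        (∀ f : EuclideanSpace ℝ (Fin n) → ℝ, ContDiff ℝ ∞ f → HasCompactSupport f →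
          (∫ x, f x ^ 2 ∂μ) - (∫ x, f x ∂μ) ^ 2 ≤ C * a ^ 2 * ∫ x, ‖gradient f x‖ ^ 2 ∂μ ∧
          (∀ R : ℝ, 1 ≤ R → (∀ x, f x ^ 2 ≤ R * ∫ y, f y ^ 2 ∂μ) →
            Entropy μ (fun x => f x ^ 2) ≤
              C * (1 + Real.log R) * a ^ 2 * ∫ x, ‖gradient f x‖ ^ 2 ∂μ) ∧
          (∀ k : ℝ, 1 ≤ k →
            ∫ x, (f x - ∫ y, f y ∂μ) ^ 4 ∂μ ≤ k * (∫ x, (f x - ∫ y, f y ∂μ) ^ 2 ∂μ) ^ 2 →
            Entropy μ (fun x => f x ^ 2) ≤
              C * (1 + Real.log k) * a ^ 2 * ∫ x, ‖gradient f x‖ ^ 2 ∂μ) ∧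
          (∀ p : ℝ, 2 < p →
            Entropy μ (fun x => f x ^ 2) ≤
              C * (p / (p - 2)) * a ^ 2 * (∫ x, ‖gradient f x‖ ^ p ∂μ) ^ (2 / p))) ∧
        (∀ (d : ℕ) (p : MvPolynomial (Fin n) ℝ), p.totalDegree ≤ d →
          ∀ f : EuclideanSpace ℝ (Fin n) → ℝ, (∀ x, f x = MvPolynomial.eval (fun i => x i) p) →
          Entropy μ (fun x => f x ^ 2) ≤ C * (d + 1) * a ^ 2 * ∫ x, ‖gradient f x‖ ^ 2 ∂μ) ∧
        (∀ F : EuclideanSpace ℝ (Fin n) → ℝ, LipschitzWith 1 F → ConvexOn ℝ Set.univ F →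
          ∀ t : ℝ, 0 ≤ t →
          ∫ x, Real.exp (-t * (F x - ∫ y, F y ∂μ)) ∂μ ≤ Real.exp (C * a ^ 2 * t ^ 2))) := by
  obtain ⟨C0, hC0, hK⟩ := Vale.Agent.P245.K.kls_final
  obtain ⟨C1, hC1, hP⟩ := Q895.poly_of ⟨C0, hC0, hK⟩
  obtain ⟨C, hCd⟩ : ∃ C : ℝ, C = 200 * C0 + C1 + 26 := ⟨_, rfl⟩
  have hC : 0 < C := by rw [hCd]; positivity
  have hle1 : 200 * C0 ≤ C := by rw [hCd]; linarith
  have hle2 : C1 ≤ C := by rw [hCd]; linarith
  have hle3 : 8 * C0 + 26 ≤ C := by rw [hCd]; linarith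
  refine ⟨C, hC, fun n μ _ hlc => ?_⟩
  have hG : ∀ f : EuclideanSpace ℝ (Fin n) → ℝ, 0 ≤ ∫ x, ‖gradient f x‖ ^ 2 ∂μ :=
    fun f => integral_nonneg fun x => by positivity
  -- a common step: enlarge the constant
  have up : ∀ (c X : ℝ), 0 ≤ X → c ≤ C → c * X ≤ C * X :=
    fun c X hX hc => mul_le_mul_of_nonneg_right hc hX
  refine ⟨fun b K hb hKK f hf hfc => ?_, fun a ha hsub => ⟨fun f hf hfc => ?_, fun d p hp f hf => ?_,
    fun F hF hFc t ht => ?_⟩⟩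
  · obtain ⟨h1, h2, -⟩ := H847.handin hC0 hK n μ hlc b K hb hKK f hf hfc
    have hX : 0 ≤ ∫ x, ∑ i, ∑ j, K i j * (gradient f x i * gradient f x j) ∂μ := by
      by_contra hneg
      have h3 := hK n μ hlc b K hb hKK f hf hfc
      push Not at hneg
      have h4 := var_nonneg (μ := μ) hf.continuous hfc
      have h5 := mul_neg_of_pos_of_neg hC0 hneg
      linarith
    refine ⟨h1.trans (up _ _ hX hle1), fun Λ hΛ0 hΛ => ?_⟩
    obtain ⟨g1, g2, g3⟩ := h2 Λ hΛ0 hΛ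
    refine ⟨?_, fun R hR hfR => ?_, fun p hp => ?_⟩
    · refine g1.trans ?_
      have := up (200 * C0) (Λ * ∫ x, ‖gradient f x‖ ^ 2 ∂μ) (mul_nonneg hΛ0 (hG f)) hle1
      linarith only [this]
    · refine (g2 R hR hfR).trans ?_
      have h0 : 0 ≤ Real.log R := Real.log_nonneg hR
      have := up (200 * C0) ((1 + Real.log R) * Λ * ∫ x, ‖gradient f x‖ ^ 2 ∂μ)
        (mul_nonneg (mul_nonneg (by linarith) hΛ0) (hG f)) hle1
      linarith only [this]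
    · refine (g3 p hp).trans ?_
      have h0 : 0 ≤ (∫ x, ‖gradient f x‖ ^ p ∂μ) ^ (2 / p) :=
        Real.rpow_nonneg (integral_nonneg fun x => by positivity) _
      have h4 : 0 ≤ p / (p - 2) := div_nonneg (by linarith) (by linarith)
      have := up (200 * C0) ((p / (p - 2)) * Λ * (∫ x, ‖gradient f x‖ ^ p ∂μ) ^ (2 / p))
        (mul_nonneg (mul_nonneg h4 hΛ0) h0) hle1
      linarith only [this]
  · obtain ⟨-, -, h2⟩ := H847.handin hC0 hK n μ hlc (fun i => ∫ x, x i ∂μ)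
      (fun i j => ∫ x, (x i - ∫ y, y i ∂μ) * (x j - ∫ y, y j ∂μ) ∂μ) (fun i => rfl)
      (fun i j => rfl) f hf hfc
    obtain ⟨g1, g2, g3⟩ := h2 a ha hsub
    have ha2 : 0 ≤ a ^ 2 := sq_nonneg a
    refine ⟨?_, fun R hR hfR => ?_, fun k hk h4 => ?_, fun p hp => ?_⟩
    · refine g1.trans ?_
      have := up (200 * C0) (a ^ 2 * ∫ x, ‖gradient f x‖ ^ 2 ∂μ) (mul_nonneg ha2 (hG f)) hle1
      linarith only [this]
    · refine (g2 R hR hfR).trans ?_
      have h0 : 0 ≤ Real.log R := Real.log_nonneg hR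
      have := up (200 * C0) ((1 + Real.log R) * a ^ 2 * ∫ x, ‖gradient f x‖ ^ 2 ∂μ)
        (mul_nonneg (mul_nonneg (by linarith) ha2) (hG f)) hle1
      linarith only [this]
    · refine ((hP n μ hlc a ha hsub).2 f hf hfc k hk h4).trans ?_
      have h0 : 0 ≤ Real.log k := Real.log_nonneg hk
      have := up C1 ((1 + Real.log k) * a ^ 2 * ∫ x, ‖gradient f x‖ ^ 2 ∂μ)
        (mul_nonneg (mul_nonneg (by linarith) ha2) (hG f)) hle2
      linarith only [this]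
    · refine (g3 p hp).trans ?_
      have h0 : 0 ≤ (∫ x, ‖gradient f x‖ ^ p ∂μ) ^ (2 / p) :=
        Real.rpow_nonneg (integral_nonneg fun x => by positivity) _
      have h4 : 0 ≤ p / (p - 2) := div_nonneg (by linarith) (by linarith)
      have := up (200 * C0) ((p / (p - 2)) * a ^ 2 * (∫ x, ‖gradient f x‖ ^ p ∂μ) ^ (2 / p))
        (mul_nonneg (mul_nonneg h4 ha2) h0) hle1
      linarith only [this]
  · refine ((hP n μ hlc a ha hsub).1 d p hp f hf).trans ?_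
    have := up C1 (((d : ℝ) + 1) * a ^ 2 * ∫ x, ‖gradient f x‖ ^ 2 ∂μ)
      (mul_nonneg (mul_nonneg (by positivity) (sq_nonneg a)) (hG f)) hle2
    linarith only [this]
  · refine (H607.conc ha hC0 hK hlc hsub hF hFc ht).trans ?_
    refine Real.exp_le_exp.2 ?_
    have := up (8 * C0 + 26) (a ^ 2 * t ^ 2) (by positivity) hle3
    linarith only [this]

end Vale.Agent.P245.H875
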